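import Vale.Agent.Lib.P310.Main
import Vale.Agent.Lib.P310.SatGraph

/-!
# P310: `k`-WL equivalence of chain graphs is the absence of odd dependencies of size at most `k`

Consequently the sum problem for at most `k - 1` vectors over the field with two elements
(maximum likelihood decoding with weight parameter `k - 1`, which is W[1]-hard) reduces to
`k`-WL inequivalence of simple graphs of polynomial size.
-/

open Vale.Agent.Lib.P310

theorem Vale.Agent.Results.P310.B_OddDependency.result (k m d : ℕ) (hk : 2 ≤ k) (hd : 0 < d) :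
    Fintype.card (Vtx (m + 1) (2 * k * d)) ≤ 44 * ((m + 1) * (2 * k * d)) ^ 3 ∧
    (∀ (u : Fin (m + 1) → Fin d → ZMod 2) (b : Fin (m + 1) → ZMod 2),
      ¬ WLEquiv k (chainGraph (repChain k hd u) 0) (chainGraph (repChain k hd u) b) ↔
        ∃ S : Finset (Fin (m + 1)), S.card ≤ k ∧ ∑ c ∈ S, u c = 0 ∧ ∑ c ∈ S, b c = 1) ∧
    (∀ (u : Fin m → Fin d → ZMod 2) (s : Fin d → ZMod 2),
      ¬ WLEquiv k (chainGraph (repChain k hd (sdBase u s)) 0)
          (chainGraph (repChain k hd (sdBase u s)) (sdTwist m)) ↔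
        ∃ T : Finset (Fin m), T.card ≤ k - 1 ∧ ∑ c ∈ T, u c = s) := by
  refine ⟨card_vtx_le _ _, fun u b => ?_, fun u s => not_wlEquiv_iff_sum hk hd u s⟩
  rw [wlEquiv_iff_noOddDep hk hd]
  unfold NoOddDep
  push Not
  refine exists_congr fun S => and_congr_right fun _ => and_congr_right fun _ => ?_
  have h : ∀ a : ZMod 2, a ≠ 0 ↔ a = 1 := by decide
  exact h _
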