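import Vale.Agent.Lib.P310.Alt.ProgSize

/-!
# P310: `ρ`-WL equivalence decides alternating register computations

For every register program with `ℓ` registers with values in a finite module `V` over a field of
characteristic two, there are explicit graphs with polynomially many vertices (in the size of the
program and `|V|`) whose `ρ`-WL equivalence, for `ρ ≥ 2 ℓ - 1`, says that a given fact is not
derivable.
-/

open Vale.Agent.Lib.P310 Vale.Agent.Lib.P310.Alt

theorem Vale.Agent.Results.P310.C_Alternation.result {F V : Type} [Field F] [CharP F 2]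
    [AddCommGroup V] [Module F V] [Fintype V] [DecidableEq V] {ρ ℓ : ℕ} (h0 : 0 < ρ) (hρ : 3 ≤ ρ)
    (hℓ : 2 * ℓ ≤ ρ + 1) (α : Fin ρ → F) (hα : Function.Injective α) :
    (∀ M : ℕ, Fintype.card V ^ ρ ≤ 2 ^ M → Nonempty (Checks (V := V) α ℓ M)) ∧
    ∀ (M : ℕ) (C : Checks (V := V) α ℓ M) (P : Prog V ℓ) (q₀ : Fin P.nQ) (x₀ : Fin ℓ → V),
      (WLEquiv ρ (altGraph (progSys h0 C P q₀ x₀) 0)
          (altGraph (progSys h0 C P q₀ x₀) 1) ↔ ¬ P.Derives q₀ x₀) ∧
      numPieces (progSys h0 C P q₀ x₀) =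
        (3 * P.nR + 2) * (ρ * Fintype.card V) * (2 * ρ * (ρ + M)) +
          (3 * P.nR + 2) * (ρ * Fintype.card V) + (P.nQ + P.nR) * (ρ * Fintype.card V) ∧
      Fintype.card (Vtx (progSys h0 C P q₀ x₀)) =
        4 * numPieces (progSys h0 C P q₀ x₀) *
          (2 * numPieces (progSys h0 C P q₀ x₀) *
            (4 * numPieces (progSys h0 C P q₀ x₀) + 1) + 1) := by
  refine ⟨fun M hM => exists_checks α ℓ hM, fun M C P q₀ x₀ =>
    ⟨wlEquiv_progSys_iff h0 C P q₀ x₀ hρ hα hℓ, numPieces_progSys _ C P q₀ x₀,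
      card_vtx_eq _⟩⟩
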