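import Vale.Agent.Lib.P310.Full.Final2

/-!
# Deciding `k`-WL equivalence needs time `n ^ Ω(k)`

For all large `k`, no program of the random access machine of `Vale.Agent.Lib.P310.Full.Model`
decides `k`-WL equivalence of pairs of `n`-vertex graphs within `C * (n + 1) ^ (k / 432)` steps.
-/

namespace Vale.Agent.Results.P310.D_RamLower

open Vale.Agent.Lib.P310.Full

/-- There is `k₀` such that for every `k ≥ k₀`, no program and no constant `C` decide `k`-WL
equivalence of all pairs of graphs on `n` vertices in at most `C * (n + 1) ^ ⌊k / 432⌋` steps. -/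
theorem result : ∃ k₀ : ℕ, ∀ k, k₀ ≤ k → ∀ (P : List Instr) (C : ℕ),
    ¬ DecidesWL P k (fun n => C * (n + 1) ^ (k / 432)) := by
  obtain ⟨k₀, hk₀⟩ := ram_lower_432
  exact ⟨k₀, hk₀⟩

end Vale.Agent.Results.P310.D_RamLower
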