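import Vale.Agent.Lib.P310.Full.TMFinal

/-!
# Deciding `k`-WL equivalence needs time `n ^ Ω(k)`, on random access and on Turing machines
-/

namespace Vale.Agent.Results.P310.E_RamAndTuring

open Vale.Agent.Lib.P310.Full

/-- There is `k₀` such that for every `k ≥ k₀`, no random access program and no constant `C` decide
`k`-WL equivalence of all pairs of graphs on `n` vertices in at most `C * (n + 1) ^ ⌊k / 432⌋`
steps, and no Turing machine with finitely many tapes, states and symbols decides it in time
`O(n ^ ⌊k / 432⌋)`. -/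
theorem result : ∃ k₀ : ℕ, ∀ k, k₀ ≤ k →
    (∀ (P : List Instr) (C : ℕ), ¬ DecidesWL P k (fun n => C * (n + 1) ^ (k / 432))) ∧
    (∀ (τ Q Γ : Type) [Finite τ] [Finite Q] [Finite Γ] (M : MTM τ Q Γ), MDecidesWL k M →
      ¬ MTimeBigO M (k / 432)) :=
  ram_and_tm_lower

end Vale.Agent.Results.P310.E_RamAndTuring
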